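import Vale.Agent.P073.MM.Cv
import Vale.Agent.P073.MM.H307.MollLp
import Vale.Agent.P073.PK.Sob560a

/-!
# P073, block MM: one piece of the smoothing
-/

namespace Vale.Agent.P073.MM.H146

open MeasureTheory Set Filter Topology Metric Vale.Agent.P073.St Vale.Agent.P073.AB
open scoped ContDiff ENNReal

/-- powers of finite sums -/
theorem pow_sum {p : ℝ} (hp : 1 ≤ p) (N : ℕ) : ∀ a : ℕ → ℝ≥0∞,
    (∑ n ∈ Finset.range N, a n) ^ p ≤
      ∑ n ∈ Finset.range N, ((2 : ℝ≥0∞) ^ (p - 1)) ^ (n + 1) * a n ^ p := by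
  induction N with
  | zero => intro a; simp; linarith
  | succ N ih =>
    intro a
    rw [Finset.sum_range_succ', Finset.sum_range_succ']
    refine (ENNReal.rpow_add_le_mul_rpow_add_rpow _ _ hp).trans ?_
    rw [mul_add]
    refine add_le_add ?_ ?_
    · refine (mul_le_mul_right (ih fun n => a (n + 1)) _).trans ?_
      rw [Finset.mul_sum]
      refine Finset.sum_le_sum fun n _ => ?_
      rw [← mul_assoc, ← pow_succ']
    · simp

theorem w_sum (N : ℕ) : ∑ n ∈ Finset.range N, ((1 : ℝ) / 2) ^ (n + 1) ≤ 1 := by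
  have h : ∀ N : ℕ, ∑ n ∈ Finset.range N, ((1 : ℝ) / 2) ^ (n + 1) = 1 - (1 / 2) ^ N := by
    intro N
    induction N with
    | zero => simp
    | succ N ih => rw [Finset.sum_range_succ, ih]; ring
  rw [h]
  have : (0 : ℝ) ≤ (1 / 2) ^ N := by positivity
  linarith

/-- the bump function with outer radius `δ` -/
noncomputable def bump (δ : ℝ) (hδ : 0 < δ) : ContDiffBump (0 : V) := ⟨δ / 2, δ, by linarith, by linarith⟩

theorem normed_zero {K W : Set V} {δ : ℝ} (h : thickening δ K ⊆ W) (φ : ContDiffBump (0 : V))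
    (hφ : φ.rOut ≤ δ) {x y : V} (hx : x ∉ W) (hy : y ∈ K) : φ.normed volume (x - y) = 0 := by
  by_contra hne
  have h1 : x - y ∈ Function.support (φ.normed (volume : Measure V)) := hne
  rw [φ.support_normed_eq, mem_ball_zero_iff] at h1
  apply hx
  apply h
  rw [mem_thickening_iff]
  exact ⟨y, hy, by rw [dist_eq_norm]; linarith⟩

theorem cv_zero {E : Type*} [NormedAddCommGroup E] [NormedSpace ℝ E] {K : Set V}
    (φ : ContDiffBump (0 : V)) {u : V → E} {x : V} (h : ∀ y ∈ K, φ.normed volume (x - y) = 0)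
    (hu : ∀ y, y ∉ K → u y = 0) : cv φ u x = 0 := by
  unfold cv
  rw [← integral_zero V E (μ := volume)]
  refine integral_congr_ae (ae_of_all _ fun y => ?_)
  by_cases hy : y ∈ K
  · simp only [h y hy, zero_smul]
  · simp only [hu y hy, smul_zero]

/-- the error term of the derivative -/
noncomputable def Et (c : V → ℝ) (f : V → V) (y : V) : V →L[ℝ] V :=
  (fderiv ℝ c y).smulRight (f y)

theorem Et_cont {U : Set V} {f : V → V} {c : V → ℝ} (hU : IsOpen U) (hf : ContinuousOn f U)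
    (hc : ContDiff ℝ ∞ c) (hs : tsupport c ⊆ U) : Continuous (Et c f) := by
  have h1 : ContinuousOn (Et c f) U := by
    have h2 : ContinuousOn (fun y => ContinuousLinearMap.smulRightL ℝ V V (fderiv ℝ c y)) U :=
      ((ContinuousLinearMap.smulRightL ℝ V V).continuous.comp
        (hc.continuous_fderiv (by simp))).continuousOn
    exact h2.clm_apply hf
  refine h1.continuous_of_tsupport_subset hU ?_
  refine Subset.trans ?_ ((tsupport_fderiv_subset ℝ (f := c)).trans hs)
  refine closure_mono fun y hy => ?_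
  intro h0
  apply hy
  show (fderiv ℝ c y).smulRight (f y) = 0
  rw [h0]
  ext v
  simp

theorem Et_comp {f : V → V} {c : V → ℝ} (hcc : HasCompactSupport c) :
    HasCompactSupport (Et c f) := by
  refine (hcc.fderiv (𝕜 := ℝ)).mono fun y hy => ?_
  intro h0
  apply hy
  show (fderiv ℝ c y).smulRight (f y) = 0
  rw [h0]
  ext v
  simp

theorem Et_zero {f : V → V} {c : V → ℝ} {y : V} (hy : y ∉ tsupport c) : Et c f y = 0 := by
  have h0 : fderiv ℝ c y = 0 :=
    image_eq_zero_of_notMem_tsupport fun h => hy (tsupport_fderiv_subset ℝ h)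
  show (fderiv ℝ c y).smulRight (f y) = 0
  rw [h0]
  ext v
  simp

variable {p : ℝ} {U : Set V} {f : V → V} {F : V → Mat}

/-- one piece -/
theorem piece (hp : 1 ≤ p) (hU : IsOpen U) (hf : ContinuousOn f U) {c : V → ℝ} {W : Set V}
    (hc : ContDiff ℝ ∞ c) (hcc : HasCompactSupport c) (hW : IsOpen W) (hcW : tsupport c ⊆ W)
    (hWU : W ⊆ U) {D' : V → V →L[ℝ] V} (hD : LocallyIntegrable D')
    (hDp : MemLp D' (ENNReal.ofReal p)) {τ ρ : ℝ} (hτ : 0 < τ) (hρ : 0 < ρ) :
    ∃ φ : ContDiffBump (0 : V), (∀ x, x ∉ W → ∀ y ∈ tsupport c, φ.normed volume (x - y) = 0) ∧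
      (∀ x, ‖cv φ (fun y => c y • f y) x - c x • f x‖ ≤ ρ) ∧
      (∀ x, ‖cv φ (Et c f) x - Et c f x‖ ≤ ρ) ∧
      ∫⁻ x, ‖cv φ (fun y => c y • D' y) x - c x • D' x‖ₑ ^ p ≤ ENNReal.ofReal τ := by
  have hcU : tsupport c ⊆ U := hcW.trans hWU
  obtain ⟨δ₁, hδ₁, h1⟩ := hcc.isCompact.exists_thickening_subset_open hW hcW
  obtain ⟨δ₂, hδ₂, h2⟩ := cv_unif (cont_smul hU hf hc.continuous hcU)
    (hcc.smul_right (f' := f)) hρ
  obtain ⟨δ₃, hδ₃, h3⟩ := cv_unif (Et_cont hU hf hc hcU) (Et_comp hcc) hρ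
  have hG : Integrable fun y => c y • D' y :=
    hD.integrable_smul_left_of_hasCompactSupport hc.continuous hcc
  obtain ⟨C, hC⟩ := hcc.exists_bound_of_continuous hc.continuous
  have hGp : MemLp (fun y => c y • D' y) (ENNReal.ofReal p) :=
    hDp.of_le_mul (c := C) hG.aestronglyMeasurable (ae_of_all _ fun y => by
      rw [norm_smul]; exact mul_le_mul_of_nonneg_right (hC y) (norm_nonneg _))
  have hp0 : ENNReal.ofReal p ≠ 0 := by
    rw [Ne, ENNReal.ofReal_eq_zero]; linarith
  have hfin := (eLpNorm_lt_top_iff_lintegral_rpow_enorm_lt_top hp0 ENNReal.ofReal_ne_top).1 hGp.2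
  rw [ENNReal.toReal_ofReal (by linarith)] at hfin
  obtain ⟨δ₄, hδ₄, h4⟩ := H307.moll p (fun y => c y • D' y) hp hG.aestronglyMeasurable (by
    simp only [H307.enorm_rpow_eq p (by linarith)]
    exact hfin.ne) τ hτ
  set δ : ℝ := min (min δ₁ δ₂) (min δ₃ δ₄) with hδdef
  have hδ : 0 < δ := lt_min (lt_min hδ₁ hδ₂) (lt_min hδ₃ hδ₄)
  refine ⟨bump δ hδ, fun x hx y hy => ?_, h2 _ ?_, h3 _ ?_, ?_⟩
  · exact normed_zero h1 _ ((min_le_left _ _).trans (min_le_left _ _)) hx hy
  · exact (min_le_left _ _).trans (min_le_right _ _)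
  · exact (min_le_right _ _).trans (min_le_left _ _)
  · have h5 := h4 (bump δ hδ) ((min_le_right _ _).trans (min_le_right _ _))
    simp only [H307.enorm_rpow_eq p (by linarith)] at h5
    exact h5

/-- the derivative of one mollified piece -/
theorem piece_deriv (φ : ContDiffBump (0 : V)) (hU : IsOpen U) (hf : ContinuousOn f U)
    {c : V → ℝ} (hc : ContDiff ℝ ∞ c) (hcc : HasCompactSupport c) (hcU : tsupport c ⊆ U)
    {D' : V → V →L[ℝ] V} (hD : LocallyIntegrable D') (hw : HB.WeakDeriv volume U f D') (x : V) :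
    fderiv ℝ (cv φ fun y => c y • f y) x =
      cv φ (fun y => c y • D' y) x + cv φ (Et c f) x := by
  ext1 v
  have hG : Integrable fun y => c y • D' y :=
    hD.integrable_smul_left_of_hasCompactSupport hc.continuous hcc
  have hE : Continuous (Et c f) := Et_cont hU hf hc hcU
  rw [cv_weak φ hU hf hw hc hcc hcU x v, ContinuousLinearMap.add_apply,
    cv_apply φ hG.locallyIntegrable, cv_apply φ hE.locallyIntegrable]
  rfl

/-- the kernel average of nonnegative fields -/
theorem cv_nonneg (φ : ContDiffBump (0 : V)) {G : V → V →L[ℝ] V} (hG : LocallyIntegrable G)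
    (h : V) (hpos : ∀ᵐ y ∂(volume : Measure V), 0 ≤ ∑ i, h i * G y h i) (x : V) :
    0 ≤ ∑ i, h i * cv φ G x h i := by
  set L : V →L[ℝ] ℝ := ∑ i, h i • (ContinuousLinearMap.proj i : V →L[ℝ] ℝ) with hL
  have hLv : ∀ v : V, L v = ∑ i, h i * v i := fun v => by
    rw [hL, ContinuousLinearMap.sum_apply]
    rfl
  have hGh : LocallyIntegrable (fun y => G y h) := fun y => by
    obtain ⟨s, hs, hi⟩ := hG y
    exact ⟨s, hs, hi.apply_continuousLinearMap h⟩
  rw [← hLv, cv_apply φ hG]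
  unfold cv
  rw [← L.integral_comp_comm (cv_integrable φ hGh x)]
  refine integral_nonneg_of_ae ?_
  filter_upwards [hpos] with y hy
  rw [map_smul, hLv]
  exact mul_nonneg (φ.nonneg_normed _) hy

end Vale.Agent.P073.MM.H146
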